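import Vale.Agent.P072G.Main

namespace Vale.Agent.Results.P072.BoundedAllRanks

open Vale.Agent.P072 Set

/-- Uniform boundedness of every weakly reversible mass-action system, with no restriction on the
number of species, the dimension of the stoichiometric subspace or the number of linkage classes,
for constant or time-dependent rates in `[ε, 1/ε]`. -/
theorem result {d : ℕ} {ι : Type} [Fintype ι] (src tgt : ι → Fin d → ℕ)
    (WR : WeaklyRev src tgt) (ε : ℝ) (hε : 0 < ε) (Λ : ℝ) :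
    ∃ M : ℝ, ∀ (k : ι → ℝ → ℝ) (T : ℝ) (x : ℝ → Fin d → ℝ),
      (∀ r, ∀ t ∈ Ico (0 : ℝ) T, ε ≤ k r t ∧ k r t ≤ 1 / ε) →
      (∀ i, x 0 i ≤ Λ) →
      (∀ t ∈ Ico (0 : ℝ) T, (∀ i, 0 < x t i) ∧
        HasDerivWithinAt x (∑ r, (k r t * ∏ i, x t i ^ src r i) • vec src tgt r) (Ico 0 T) t) →
      ∀ t ∈ Ico (0 : ℝ) T, ∀ i, x t i ≤ M :=
  Vale.Agent.P072G.bounded_all WR ε hε Λ

end Vale.Agent.Results.P072.BoundedAllRanks
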