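import Vale.Agent.P072.Main

namespace Vale.Agent.Results.P072.BoundedRankTwo

open Vale.Agent.P072 Set

/-- Uniform boundedness of every weakly reversible mass-action system whose stoichiometric
subspace has dimension at most two, for constant or time-dependent rates in `[ε, 1/ε]`. -/
theorem result {d : ℕ} {ι : Type} [Fintype ι] (src tgt : ι → Fin d → ℕ)
    (hne : ∀ r, src r ≠ tgt r) (WR : WeaklyRev src tgt)
    (hrank : Module.finrank ℝ (Submodule.span ℝ (Set.range (vec src tgt))) ≤ 2)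
    (ε : ℝ) (hε : 0 < ε) (c : Fin d → ℝ) (hc : ∀ i, 0 < c i) (Λ : ℝ) :
    ∃ M : ℝ, ∀ (k : ι → ℝ → ℝ) (T : ℝ) (x : ℝ → Fin d → ℝ),
      (∀ r, ∀ t ∈ Ico (0 : ℝ) T, ε ≤ k r t ∧ k r t ≤ 1 / ε) →
      x 0 - c ∈ Submodule.span ℝ (Set.range (vec src tgt)) →
      (∀ i, x 0 i ≤ Λ) →
      (∀ t ∈ Ico (0 : ℝ) T, (∀ i, 0 < x t i) ∧
        HasDerivWithinAt x (∑ r, (k r t * ∏ i, x t i ^ src r i) • vec src tgt r) (Ico 0 T) t) →
      ∀ t ∈ Ico (0 : ℝ) T, ∀ i, x t i ≤ M :=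
  bounded_main src tgt hne WR hrank ε hε c hc Λ

end Vale.Agent.Results.P072.BoundedRankTwo
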