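import Vale.Agent.P072G.Final

namespace Vale.Agent.Results.P072.Permanence

open Vale.Agent.P072

/-- **The permanence conjecture.** Every weakly reversible mass-action system is permanent on every
positive stoichiometric class, with no restriction on the number of species, on the dimension of
the stoichiometric subspace or on the number of linkage classes: for constant rates in `[ε, 1/ε]`
every initial point of the class has a unique global positive solution, and it eventually lies in a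
compact subset `K` of the class, with `K` depending only on `ε` and the class. The same `K`
eventually contains every solution on `[0, ∞)` for time-dependent rates with values in
`[ε, 1/ε]`. -/
theorem result {d : ℕ} {ι : Type} [Fintype ι] (src tgt : ι → Fin d → ℕ)
    (WR : WeaklyRev src tgt) (ε : ℝ) (hε : 0 < ε) (c : Fin d → ℝ) (hc : ∀ i, 0 < c i) :
    ∃ K : Set (Fin d → ℝ), IsCompact K ∧
      (∀ y ∈ K, (∀ i, 0 < y i) ∧ y - c ∈ Submodule.span ℝ (Set.range (vec src tgt))) ∧
      (∀ k : ι → ℝ, (∀ r, ε ≤ k r ∧ k r ≤ 1 / ε) →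
        ∀ x₀ : Fin d → ℝ, (∀ i, 0 < x₀ i) → x₀ - c ∈ Submodule.span ℝ (Set.range (vec src tgt)) →
        ∃ x : ℝ → Fin d → ℝ, x 0 = x₀ ∧
          (∀ t, 0 ≤ t → (∀ i, 0 < x t i) ∧
            HasDerivWithinAt x (∑ r, (k r * ∏ i, x t i ^ src r i) • vec src tgt r)
              (Set.Ici 0) t) ∧
          (∃ T₀ : ℝ, 0 ≤ T₀ ∧ ∀ t, T₀ ≤ t → x t ∈ K) ∧
          (∀ y : ℝ → Fin d → ℝ, y 0 = x₀ →
            (∀ t, 0 ≤ t → (∀ i, 0 < y t i) ∧
              HasDerivWithinAt y (∑ r, (k r * ∏ i, y t i ^ src r i) • vec src tgt r)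
                (Set.Ici 0) t) →
            ∀ t, 0 ≤ t → y t = x t)) ∧
      (∀ (k : ι → ℝ → ℝ) (x : ℝ → Fin d → ℝ),
        (∀ r, ∀ t, 0 ≤ t → ε ≤ k r t ∧ k r t ≤ 1 / ε) →
        x 0 - c ∈ Submodule.span ℝ (Set.range (vec src tgt)) →
        (∀ t, 0 ≤ t → (∀ i, 0 < x t i) ∧
          HasDerivWithinAt x (∑ r, (k r t * ∏ i, x t i ^ src r i) • vec src tgt r) (Set.Ici 0) t) →
        ∃ T₀ : ℝ, 0 ≤ T₀ ∧ ∀ t, T₀ ≤ t → x t ∈ K) :=
  Vale.Agent.P072G.permanence_all src tgt WR ε hε c hc

end Vale.Agent.Results.P072.Permanence
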