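import Vale.Agent.P072T.Main

namespace Vale.Agent.Results.P072.PermanenceRankTwo

open Vale.Agent.P072

/-- Permanence of every weakly reversible mass-action system whose stoichiometric subspace has
dimension at most two, for constant or time-dependent rates in `[ε, 1/ε]`: a compact subset `K` of
the positive stoichiometric class eventually contains every solution defined for all `t ≥ 0`;
and a solution on any `[0, T)` starting in a compact subset of the class stays in a compact subset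
of the class which depends only on the initial compact set, so it can neither blow up nor reach
the boundary of the orthant in finite time. -/
theorem result {d : ℕ} {ι : Type} [Fintype ι] (src tgt : ι → Fin d → ℕ)
    (hne : ∀ r, src r ≠ tgt r) (WR : WeaklyRev src tgt)
    (hrank : Module.finrank ℝ (Submodule.span ℝ (Set.range (vec src tgt))) ≤ 2)
    (ε : ℝ) (hε : 0 < ε) (c : Fin d → ℝ) (hc : ∀ i, 0 < c i) :
    (∃ K : Set (Fin d → ℝ), IsCompact K ∧
      (∀ y ∈ K, (∀ i, 0 < y i) ∧ y - c ∈ Submodule.span ℝ (Set.range (vec src tgt))) ∧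
      ∀ (k : ι → ℝ → ℝ) (x : ℝ → Fin d → ℝ),
        (∀ r, ∀ t, 0 ≤ t → ε ≤ k r t ∧ k r t ≤ 1 / ε) →
        x 0 - c ∈ Submodule.span ℝ (Set.range (vec src tgt)) →
        (∀ t, 0 ≤ t → (∀ i, 0 < x t i) ∧
          HasDerivWithinAt x (∑ r, (k r t * ∏ i, x t i ^ src r i) • vec src tgt r) (Set.Ici 0) t) →
        ∃ T₀ : ℝ, 0 ≤ T₀ ∧ ∀ t, T₀ ≤ t → x t ∈ K) ∧
    (∀ δ₀ Λ₀ : ℝ, 0 < δ₀ → ∃ δ₁ M₁ : ℝ, 0 < δ₁ ∧
      ∀ (k : ι → ℝ → ℝ) (T : ℝ) (x : ℝ → Fin d → ℝ),
        (∀ r, ∀ t ∈ Set.Ico (0 : ℝ) T, ε ≤ k r t ∧ k r t ≤ 1 / ε) →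
        x 0 - c ∈ Submodule.span ℝ (Set.range (vec src tgt)) →
        (∀ i, δ₀ ≤ x 0 i ∧ x 0 i ≤ Λ₀) →
        (∀ t ∈ Set.Ico (0 : ℝ) T, (∀ i, 0 < x t i) ∧
          HasDerivWithinAt x (∑ r, (k r t * ∏ i, x t i ^ src r i) • vec src tgt r)
            (Set.Ico 0 T) t) →
        ∀ t ∈ Set.Ico (0 : ℝ) T, ∀ i, δ₁ ≤ x t i ∧ x t i ≤ M₁) :=
  Vale.Agent.P072.Tilt.permanence_main src tgt hne WR hrank ε hε c hc

end Vale.Agent.Results.P072.PermanenceRankTwo
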