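import Vale.Agent.P072T.Global

namespace Vale.Agent.Results.P072.PermanenceRankTwoGlobal

open Vale.Agent.P072

/-- Every weakly reversible mass-action system with `dim S ≤ 2` is permanent on every positive
stoichiometric class, in the literal sense: for constant rates in `[ε, 1/ε]` every initial point
of the class has a unique global positive solution, and it eventually lies in a compact subset `K`
of the class, with `K` depending only on `ε` and the class. The same `K` eventually contains every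
solution on `[0, ∞)` for time-dependent rates with values in `[ε, 1/ε]`. -/
theorem result {d : ℕ} {ι : Type} [Fintype ι] (src tgt : ι → Fin d → ℕ)
    (hne : ∀ r, src r ≠ tgt r) (WR : WeaklyRev src tgt)
    (hrank : Module.finrank ℝ (Submodule.span ℝ (Set.range (vec src tgt))) ≤ 2)
    (ε : ℝ) (hε : 0 < ε) (c : Fin d → ℝ) (hc : ∀ i, 0 < c i) :
    ∃ K : Set (Fin d → ℝ), IsCompact K ∧
      (∀ y ∈ K, (∀ i, 0 < y i) ∧ y - c ∈ Submodule.span ℝ (Set.range (vec src tgt))) ∧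
      (∀ k : ι → ℝ, (∀ r, ε ≤ k r ∧ k r ≤ 1 / ε) →
        ∀ x₀ : Fin d → ℝ, (∀ i, 0 < x₀ i) → x₀ - c ∈ Submodule.span ℝ (Set.range (vec src tgt)) →
        ∃ x : ℝ → Fin d → ℝ, x 0 = x₀ ∧
          (∀ t, 0 ≤ t → (∀ i, 0 < x t i) ∧
            HasDerivWithinAt x (∑ r, (k r * ∏ i, x t i ^ src r i) • vec src tgt r)
              (Set.Ici 0) t) ∧
          (∃ T₀ : ℝ, 0 ≤ T₀ ∧ ∀ t, T₀ ≤ t → x t ∈ K) ∧
          (∀ y : ℝ → Fin d → ℝ, y 0 = x₀ →
            (∀ t, 0 ≤ t → (∀ i, 0 < y t i) ∧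
              HasDerivWithinAt y (∑ r, (k r * ∏ i, y t i ^ src r i) • vec src tgt r)
                (Set.Ici 0) t) →
            ∀ t, 0 ≤ t → y t = x t)) ∧
      (∀ (k : ι → ℝ → ℝ) (x : ℝ → Fin d → ℝ),
        (∀ r, ∀ t, 0 ≤ t → ε ≤ k r t ∧ k r t ≤ 1 / ε) →
        x 0 - c ∈ Submodule.span ℝ (Set.range (vec src tgt)) →
        (∀ t, 0 ≤ t → (∀ i, 0 < x t i) ∧
          HasDerivWithinAt x (∑ r, (k r t * ∏ i, x t i ^ src r i) • vec src tgt r) (Set.Ici 0) t) →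
        ∃ T₀ : ℝ, 0 ≤ T₀ ∧ ∀ t, T₀ ≤ t → x t ∈ K) := by
  obtain ⟨⟨K, hK, hKc, hev⟩, -⟩ := Vale.Agent.P072.Tilt.permanence_main src tgt hne WR hrank ε hε c hc
  refine ⟨K, hK, hKc, ?_, hev⟩
  intro k hk x₀ hx₀ hx₀c
  have hkpos : ∀ r, 0 < k r := fun r => lt_of_lt_of_le hε (hk r).1
  obtain ⟨x, hx0, hsol, huniq⟩ :=
    Vale.Agent.P072.Tilt.global_rank_two src tgt hne WR hrank k hkpos x₀ hx₀
  refine ⟨x, hx0, hsol, ?_, huniq⟩
  exact hev (fun r _ => k r) x (fun r _ _ => hk r) (by rw [hx0]; exact hx₀c) hsol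

end Vale.Agent.Results.P072.PermanenceRankTwoGlobal
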